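import Vale.Agent.P141.Main

open Vale.Agent.P141
open scoped ENNReal

theorem Vale.Agent.Results.P141.Unbounded.result :
    (∀ (ι : Type) [Fintype ι] (w : ι → ℝ) (X Y : ι → ℤ), (∀ i, 0 < w i) → ∑ i, w i = 1 →
      ∀ p₁ p₂ p₃ r : ℝ≥0∞, Holder p₁ p₂ p₃ r →
        (p₁⁻¹).toReal * ent w (fun i => X i - Y i) +
          (p₂⁻¹).toReal * ent w (fun i => X i - 2 * Y i) +
          (p₃⁻¹).toReal * ent w (fun i => X i - 3 * Y i) < ((r⁻¹).toReal - 1) * ent w X →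
        ¬ BoundedAt p₁ p₂ p₃ r) ∧
    (∀ p₁ p₂ p₃ r : ℝ≥0∞, Holder p₁ p₂ p₃ r →
      1 ≤ 0.455 * (p₁⁻¹).toReal + 0.4975 * (p₂⁻¹).toReal + 0.455 * (p₃⁻¹).toReal →
      ¬ BoundedAt p₁ p₂ p₃ r) ∧
    (∀ p : ℝ, 1 < p → p ≤ 1.4075 →
      ¬ BoundedAt (ENNReal.ofReal p) (ENNReal.ofReal p) (ENNReal.ofReal p)
        (ENNReal.ofReal (p / 3))) := by
  refine ⟨fun ι _ w X Y hw h1 _ _ _ _ hH h => crit w X Y hw h1 hH h, fun _ _ _ _ => region,
    fun p h1 h2 => ?_⟩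
  have hp : 0 < p := by linarith
  have a : 1 < ENNReal.ofReal p := ENNReal.one_lt_ofReal.mpr h1
  apply region
  · refine ⟨a, a, a, ENNReal.ofReal_pos.mpr (by positivity), ENNReal.ofReal_lt_top, ?_⟩
    rw [← ENNReal.ofReal_inv_of_pos hp, ← ENNReal.ofReal_inv_of_pos (by positivity),
      ← ENNReal.ofReal_add (by positivity) (by positivity),
      ← ENNReal.ofReal_add (by positivity) (by positivity)]
    congr 1; field_simp; ring
  · rw [ENNReal.toReal_inv, ENNReal.toReal_ofReal hp.le]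
    have : 1 ≤ 1.4075 * p⁻¹ := by rw [← div_eq_mul_inv, le_div_iff₀ hp]; linarith
    linarith
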